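import Vale.Agent.P224.MathlibUsed

/-!
The universal small box of the odd dimensions from 37 on.
-/

namespace Vale.Agent.P224.R2.H535

/-- the bound of the defect in the small box of the odd dimension `m` -/
def boxH (m : ℕ) : ℚ := 40 / (m : ℚ) ^ 3

/-- the bound of the deviation in the small box of the odd dimension `m` -/
def boxD (m : ℕ) : ℚ := 6 / (5 * (m : ℚ))

/-- the smallest gap of the odd dimension `m` -/
def boxG (m : ℕ) : ℚ := 1 / (3 * (m : ℚ) ^ 3)

lemma boxH_cast (m : ℕ) : ((boxH m : ℚ) : ℝ) = 40 / (m : ℝ) ^ 3 := by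
  unfold boxH
  push_cast
  ring

lemma boxD_cast (m : ℕ) : ((boxD m : ℚ) : ℝ) = 6 / (5 * (m : ℝ)) := by
  unfold boxD
  push_cast
  ring

lemma boxG_cast (m : ℕ) : ((boxG m : ℚ) : ℝ) = 1 / (3 * (m : ℝ) ^ 3) := by
  unfold boxG
  push_cast
  ring

end Vale.Agent.P224.R2.H535
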