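import Vale.Agent.P224.R2.H742.QFin
import Vale.Agent.P224.R2.H494.OFin

/-!
The threshold function of the tail in odd dimension, and the two families of pointwise conditions
for the flow.
-/

namespace Vale.Agent.P224.R2.H535

open MeasureTheory Set Filter Function Real Vale.Agent.P224.SM2 Vale.Agent.P224.R2.H925
  Vale.Agent.P224.R2.H582 Vale.Agent.P224.R2.H820 Vale.Agent.P224.R2.H424
  Vale.Agent.P224.R2.H494.ZT Vale.Agent.P224.R2.H742 Vale.Agent.P224.R2.H178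

/-- the threshold function of the tail in odd dimension -/
noncomputable def lamO (m : ℕ) (T : ℝ) : ℝ :=
  if T ≤ 1 / 2 then 17 * (1 - T ^ 10) * ((1 - 9 / (5 * m)) / (1 + 7 / (5 * m)))
  else max (94 / 5 - 256 / (5 * m)) ((63 / 5 - 146 / (5 * m)) / (1 - T ^ 2))

/-- the conditions of the law in odd dimension on `(0, 1/2]` -/
def OddLow (m : ℕ) : Prop :=
  ∀ (L d : ℝ) (s : ZSol ((m : ℝ) / 2) L), L * ((m : ℝ) ^ 2 - 1) = 4 → 0 < d →
    d ^ 2 * ((m : ℝ) ^ 2 - 1) = 4 → ∀ T ∈ Ioo (0 : ℝ) 1, T ≤ 1 / 2 →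
      OddAt m d (K0 ((m : ℝ) / 2) (cn m)) (9 / (5 * m)) (31 / 10) (7 / (5 * m)) (xiO m)
        (lamP 17 17 17 17 17) (lamO m) (uZ s) T

/-- the conditions of the law in odd dimension on `(1/2, 1)` -/
def OddHigh (m : ℕ) : Prop :=
  ∀ (L d : ℝ) (s : ZSol ((m : ℝ) / 2) L), L * ((m : ℝ) ^ 2 - 1) = 4 → 0 < d →
    d ^ 2 * ((m : ℝ) ^ 2 - 1) = 4 → ∀ T ∈ Ioo (0 : ℝ) 1, 1 / 2 < T →
      OddUp m d (K0 ((m : ℝ) / 2) (cn m)) (7 / (5 * m)) (lamO m) (uZ s) T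

variable {m : ℕ}

lemma dL_of (hm : 17 ≤ m) {L d : ℝ} (hL : L * ((m : ℝ) ^ 2 - 1) = 4)
    (hd2 : d ^ 2 * ((m : ℝ) ^ 2 - 1) = 4) : d ^ 2 = L := by
  have hmR : (17 : ℝ) ≤ m := by exact_mod_cast hm
  have hm1 : (m : ℝ) ^ 2 - 1 ≠ 0 := by nlinarith
  have h : d ^ 2 * ((m : ℝ) ^ 2 - 1) = L * ((m : ℝ) ^ 2 - 1) := by rw [hd2, hL]
  exact mul_right_cancel₀ hm1 h

/-- the conditions on `(0, 1/2]` hold -/
theorem oddLow (hm : 17 ≤ m) : OddLow m := by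
  intro L d s hL hd hd2 T hT hT2
  refine H494.OC.oddAt_lamP hm hL s hd.le (dL_of hm hL hd2) hT hT2 ?_
  unfold lamO
  rw [if_pos hT2]

/-- the conditions on `(1/2, 1)` hold -/
theorem oddHigh (hm : 17 ≤ m) : OddHigh m := by
  intro L d s hL hd hd2 T hT hT2
  refine H494.OC.oddUp_max hm hL s hd.le (dL_of hm hL hd2) hT ?_
  unfold lamO
  rw [if_neg (not_le.2 hT2)]

end Vale.Agent.P224.R2.H535
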