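import Vale.Agent.P224.R2.H742.FlowO
import Vale.Agent.P224.R2.H178.GlueO

/-!
One odd dimension: far range, near range and the law in a box containing the box of the near range
give the sharp bound. The flow is constructed inside.
-/

namespace Vale.Agent.P224.R2.H535

open MeasureTheory Set Filter Function Real Module Vale.Agent.P224 Vale.Agent.P224.FV
  Vale.Agent.P224.R2.H925 Vale.Agent.P224.R2.H582 Vale.Agent.P224.R2.H728
  Vale.Agent.P224.R2.H742 Vale.Agent.P224.R2.H176 Vale.Agent.P224.R2.H178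
open Vale.Agent.P224.SM2 Vale.Agent.P224.R2.H820 Vale.Agent.P224.R2.H424
  Vale.Agent.P224.R2.H494.ZT
open scoped RealInnerProductSpace Topology ContDiff Manifold ENNReal

set_option linter.unusedSectionVars false

/-- the law in the box with the bounds `H` and `D`, for all flows of the odd dimension -/
def BoxLaw (V : Type*) {W M : Type*} [NormedAddCommGroup V] [InnerProductSpace ℝ V]
    [FiniteDimensional ℝ V] [MeasurableSpace V] [BorelSpace V] [NormedAddCommGroup W]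
    [InnerProductSpace ℝ W] [FiniteDimensional ℝ W] [MeasurableSpace W] [BorelSpace W]
    [TopologicalSpace M] [ChartedSpace V M] [MeasurableSpace M]
    (F : M → W) (ν H D : ℝ) (m : ℕ) : Prop :=
  ∀ (L d r : ℝ) (s : ZSol ((m : ℝ) / 2) L), L * ((m : ℝ) ^ 2 - 1) = 4 → 0 < r →
    r ^ 2 = (m : ℝ) ^ 2 - 1 → d = 2 / r →
    ∀ (N : M → W) (b : OrthonormalBasis (Fin (finrank ℝ W)) ℝ W) (j : Fin (finrank ℝ W) → ℝ),
      NearData V F N b j ν →
      hh (nrm (volM V F)) (Matrix.diagonal j) (co b F) (co b N) ≤ H →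
      √(fro (De (nrm (volM V F)) (co b F) (co b N))) ≤ D →
      NearAtOdd V F N d (s.P 1) (JE s 0) ((m + 1) * (2 * m - 1) / r) (7 / r) (uZ s)

section

variable {V W M : Type*} [NormedAddCommGroup V] [InnerProductSpace ℝ V] [FiniteDimensional ℝ V]
  [NormedAddCommGroup W] [InnerProductSpace ℝ W] [FiniteDimensional ℝ W]
  [TopologicalSpace M] [ChartedSpace V M]
  [MeasurableSpace V] [BorelSpace V] [MeasurableSpace M] [BorelSpace M]
  [MeasurableSpace W] [BorelSpace W]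
  [IsManifold 𝓘(ℝ, V) ∞ M] [CompactSpace M] [T2Space M] [ConnectedSpace M]

/-- **one odd dimension**, from the far range, the near range and the law in the box -/
theorem odd_of_box {h : ℕ} (h8 : 8 ≤ h) (hV : finrank ℝ V = 2 * h + 1)
    (hW : finrank ℝ W = finrank ℝ V + 2)
    {F : M → W} (hF : SphImm V F) (hmin : ∀ x n, IsUnitNormal V F x n → meanCurv V F x n = 0)
    (hng : ¬ ∃ a : W, a ≠ 0 ∧ ∀ x, ⟪F x, a⟫ = 0) {ν : ℝ}
    (hfar : ∀ N : M → W, ContMDiff 𝓘(ℝ, V) 𝓘(ℝ, W) ∞ N → (∀ x, IsUnitNormal V F x (N x)) →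
      ‖∫ x, N x ∂(volM V F)‖ ≤ sphereVol (finrank ℝ V) →
      (volM V F).real univ ≤ leastClifford (finrank ℝ V) →
      ‖∫ x, N x ∂(volM V F)‖ < ν * (volM V F).real univ)
    {gp h1 d1 H D : ℝ} (hgp : 1 / (3 * (finrank ℝ V : ℝ) ^ 3) ≤ gp)
    (hnear : ∀ (N : M → W) (b : OrthonormalBasis (Fin (finrank ℝ W)) ℝ W)
      (j : Fin (finrank ℝ W) → ℝ), NearData V F N b j ν → NearOut V F N b j gp h1 d1)
    (hh1 : h1 ≤ H) (hd1 : d1 ≤ D) (hodd : BoxLaw V F ν H D (finrank ℝ V)) :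
    ENNReal.ofReal (leastClifford (finrank ℝ V)) ≤ volM V F univ := by
  have hm17 : 17 ≤ finrank ℝ V := by omega
  have hmR : (17 : ℝ) ≤ (finrank ℝ V : ℝ) := by exact_mod_cast hm17
  set m : ℕ := finrank ℝ V with hmd
  have hm1 : 0 < (m : ℝ) ^ 2 - 1 := by nlinarith
  have hL : 4 / ((m : ℝ) ^ 2 - 1) * ((m : ℝ) ^ 2 - 1) = 4 := div_mul_cancel₀ _ hm1.ne'
  have hr : 0 < √((m : ℝ) ^ 2 - 1) := Real.sqrt_pos.2 hm1
  have hr2 : √((m : ℝ) ^ 2 - 1) ^ 2 = (m : ℝ) ^ 2 - 1 := Real.sq_sqrt hm1.le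
  let s : ZSol ((m : ℝ) / 2) (4 / ((m : ℝ) ^ 2 - 1)) := zsol (par_of hm17 hL)
  refine odd_glue h8 hV hW hF hmin hng (flow_uZ hm17 hL s hr hr2 rfl) hfar hgp hnear ?_
  intro N b j hd k1 k2
  exact hodd _ _ _ s hL hr hr2 rfl N b j hd (k1.trans hh1) (k2.trans hd1)

end

end Vale.Agent.P224.R2.H535
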