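import Vale.Agent.P224.R2.H926.ChkA
import Vale.Agent.P224.R2.H926.ChkB
import Vale.Agent.P224.R2.H926.ChkC
import Vale.Agent.P224.R2.H926.ChkD
import Vale.Agent.P224.R2.H926.LowA
import Vale.Agent.P224.R2.H926.LowB
import Vale.Agent.P224.R2.H926.LowC
import Vale.Agent.P224.R2.H926.LowD

/-!
The row of every odd dimension `37 ≤ m ≤ 399`.
-/

namespace Vale.Agent.P224.R2.H535

open Vale.Agent.P224.R2.H178 Vale.Agent.P224.R2.H581 Vale.Agent.P224.R2.H977
  Vale.Agent.P224.R2.H926

/-- the dimensions of a table are the odd numbers from `a` on -/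
def oddFrom (a : ℕ) : List ORow → Bool
  | [] => true
  | r :: l => decide (r.m = a) && oddFrom (a + 2) l

lemma oddFrom_mem : ∀ (l : List ORow) (a : ℕ), oddFrom a l = true → ∀ m : ℕ, a ≤ m →
    m < a + 2 * l.length → m % 2 = a % 2 → ∃ r ∈ l, r.m = m := by
  intro l
  induction l with
  | nil =>
    intro a _ m h1 h2 _
    simp only [List.length_nil, Nat.mul_zero, Nat.add_zero] at h2
    omega
  | cons r l ih =>
    intro a h m h1 h2 h3
    simp only [oddFrom, Bool.and_eq_true, decide_eq_true_eq] at h
    rw [List.length_cons] at h2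
    rcases eq_or_ne m a with e | e
    · exact ⟨r, List.mem_cons_self, h.1.trans e.symm⟩
    · obtain ⟨s, hs, hm⟩ := ih (a + 2) h.2 m (by omega) (by omega) (by omega)
      exact ⟨s, List.mem_cons_of_mem _ hs, hm⟩

lemma row_of_tab {l : List ORow} {a m : ℕ} (ha : oddFrom a l = true) (h1 : a ≤ m)
    (h2 : m < a + 2 * l.length) (h3 : m % 2 = a % 2) (hf : l.all okR = true)
    (hg : l.all orowOK2 = true) :
    ∃ r : ORow, r.m = m ∧ okF (relO m) r = true ∧ orowOK2 r = true := by
  obtain ⟨r, hr, e⟩ := oddFrom_mem l a ha m h1 h2 h3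
  have h4 := List.all_eq_true.1 hf r hr
  unfold okR at h4
  rw [e] at h4
  exact ⟨r, e, h4, List.all_eq_true.1 hg r hr⟩

lemma lenA : tabA.length = 32 := by decide +kernel
lemma lenB : tabB.length = 50 := by decide +kernel
lemma lenC : tabC.length = 50 := by decide +kernel
lemma lenD : tabD.length = 50 := by decide +kernel

/-- **The row of every odd dimension `37 ≤ m ≤ 399`** with both kernel checks. -/
theorem row_399 {m : ℕ} (h1 : 37 ≤ m) (h2 : m ≤ 399) (h3 : m % 2 = 1) :
    ∃ r : ORow, r.m = m ∧ okF (relO m) r = true ∧ orowOK2 r = true := by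
  rcases Nat.lt_or_ge m 100 with h | h
  · exact row_of_tab (a := 37) (by decide +kernel) h1 (by rw [lenA]; omega) (by omega) chkA lowA
  rcases Nat.lt_or_ge m 200 with h' | h'
  · exact row_of_tab (a := 101) (by decide +kernel) (by omega) (by rw [lenB]; omega) (by omega)
      chkB lowB
  rcases Nat.lt_or_ge m 300 with h4 | h4
  · exact row_of_tab (a := 201) (by decide +kernel) (by omega) (by rw [lenC]; omega) (by omega)
      chkC lowC
  · exact row_of_tab (a := 301) (by decide +kernel) (by omega) (by rw [lenD]; omega) (by omega)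
      chkD lowD

end Vale.Agent.P224.R2.H535
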