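import Vale.Agent.P224.R2.H535.OddC
import Vale.Agent.P224.R2.H535.Row399

/-!
One dimension from 37 to 399, both parities: far range, near range in the form of the tables, and
in odd dimension the tail in the universal box.
-/

namespace Vale.Agent.P224.R2.H535

open MeasureTheory Set Filter Function Real Module Matrix Vale.Agent.P224 Vale.Agent.P224.FV
  Vale.Agent.P224.R2.H925 Vale.Agent.P224.R2.H582 Vale.Agent.P224.R2.H728
  Vale.Agent.P224.R2.H742 Vale.Agent.P224.R2.H176
open Vale.Agent.P224.SM2 Vale.Agent.P224.R2.H820 Vale.Agent.P224.R2.H581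
open Vale.Agent.P224.R2.H577 (NearU)
open Vale.Agent.P224.R2.H926 (rlO relO_cast)
open scoped RealInnerProductSpace Topology ContDiff Manifold ENNReal

set_option linter.unusedSectionVars false

section

variable {V W M : Type*} [NormedAddCommGroup V] [InnerProductSpace ℝ V] [FiniteDimensional ℝ V]
  [NormedAddCommGroup W] [InnerProductSpace ℝ W] [FiniteDimensional ℝ W]
  [TopologicalSpace M] [ChartedSpace V M]
  [MeasurableSpace V] [BorelSpace V] [MeasurableSpace M] [BorelSpace M]
  [MeasurableSpace W] [BorelSpace W]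
  [IsManifold 𝓘(ℝ, V) ∞ M] [CompactSpace M] [T2Space M] [ConnectedSpace M]

/-- **one dimension from 37 to 399** -/
theorem dim_of (h37 : 37 ≤ finrank ℝ V) (h399 : finrank ℝ V ≤ 399)
    (hW : finrank ℝ W = finrank ℝ V + 2)
    {F : M → W} (hF : SphImm V F) (hmin : ∀ x n, IsUnitNormal V F x n → meanCurv V F x n = 0)
    (hng : ¬ ∃ a : W, a ≠ 0 ∧ ∀ x, ⟪F x, a⟫ = 0) {ν : ℝ}
    (hfar : ∀ N : M → W, ContMDiff 𝓘(ℝ, V) 𝓘(ℝ, W) ∞ N → (∀ x, IsUnitNormal V F x (N x)) →
      ‖∫ x, N x ∂(volM V F)‖ ≤ sphereVol (finrank ℝ V) →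
      (volM V F).real univ ≤ leastClifford (finrank ℝ V) →
      ‖∫ x, N x ∂(volM V F)‖ < ν * (volM V F).real univ)
    (hnear : NearU V ν boxH boxD F)
    (htail : Odd (finrank ℝ V) → TailO V F ν (rlO (finrank ℝ V)) (finrank ℝ V)) :
    ENNReal.ofReal (leastClifford (finrank ℝ V)) ≤ volM V F univ := by
  rcases Nat.even_or_odd' (finrank ℝ V) with ⟨k, hk | hk⟩
  · obtain ⟨p, -, hev, -, hout⟩ := hnear
    obtain ⟨k1, k2⟩ := hev ⟨k, by omega⟩
    have k2R : (p.h1 : ℝ) < 0 := by exact_mod_cast k2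
    refine H176.even_glue (k := k) (by omega) hk hW hF hmin hng hfar k2R (d1 := p.d1)
      fun N b j hd => ?_
    have h := hout N b j hd
    rw [k1, Rat.cast_zero] at h
    exact h
  · obtain ⟨q, hq, hok, hrow⟩ := row_399 h37 h399 (by omega)
    exact odd_nearU (h := k) (by omega) hk hW hF hmin hng hfar hnear hrow hok hq
      (htail ⟨k, hk⟩) (relO_cast _).ge

end

end Vale.Agent.P224.R2.H535
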