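import Vale.Agent.P224.R2.H535.OddG
import Vale.Agent.P224.R2.H535.OddDef
import Vale.Agent.P224.R2.H535.Box
import Vale.Agent.P224.R2.H581.NearF

/-!
One odd dimension from 37 on: the law in the universal box from one row of the tables and the tail,
and the sharp bound from the far range and the near range.
-/

namespace Vale.Agent.P224.R2.H535

open MeasureTheory Set Filter Function Real Module Matrix Vale.Agent.P224 Vale.Agent.P224.FV
  Vale.Agent.P224.R2.H925 Vale.Agent.P224.R2.H582 Vale.Agent.P224.R2.H728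
  Vale.Agent.P224.R2.H742 Vale.Agent.P224.R2.H176
open Vale.Agent.P224.SM2 Vale.Agent.P224.R2.H820 Vale.Agent.P224.R2.H424
  Vale.Agent.P224.R2.H494.ZT Vale.Agent.P224.R2.H581
open Vale.Agent.P224.R2.H178 (ORow orowOK2)
open scoped RealInnerProductSpace Topology ContDiff Manifold ENNReal

set_option linter.unusedSectionVars false

/-- the tail in the universal small box of the odd dimension `m` -/
def TailO (V : Type*) {W M : Type*} [NormedAddCommGroup V] [InnerProductSpace ℝ V]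
    [FiniteDimensional ℝ V] [MeasurableSpace V] [BorelSpace V] [NormedAddCommGroup W]
    [InnerProductSpace ℝ W] [FiniteDimensional ℝ W] [MeasurableSpace W] [BorelSpace W]
    [TopologicalSpace M] [ChartedSpace V M] [MeasurableSpace M]
    (F : M → W) (ν rl : ℝ) (m : ℕ) : Prop :=
  ∀ (N : M → W) (b : OrthonormalBasis (Fin (finrank ℝ W)) ℝ W) (j : Fin (finrank ℝ W) → ℝ),
    NearData V F N b j ν →
    hh (nrm (volM V F)) (Matrix.diagonal j) (co b F) (co b N) ≤ 40 / (m : ℝ) ^ 3 →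
    √(fro (De (nrm (volM V F)) (co b F) (co b N))) ≤ 6 / (5 * (m : ℝ)) →
    H484.AbsTail (volM V F) m F N (lamO m)
      (rl * hh (nrm (volM V F)) (Matrix.diagonal j) (co b F) (co b N))

section

variable {V W M : Type*} [NormedAddCommGroup V] [InnerProductSpace ℝ V] [FiniteDimensional ℝ V]
  [NormedAddCommGroup W] [InnerProductSpace ℝ W] [FiniteDimensional ℝ W]
  [TopologicalSpace M] [ChartedSpace V M]
  [MeasurableSpace V] [BorelSpace V] [MeasurableSpace M] [BorelSpace M]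
  [MeasurableSpace W] [BorelSpace W]
  [IsManifold 𝓘(ℝ, V) ∞ M] [CompactSpace M] [T2Space M]

/-- the law in the universal small box -/
theorem boxLaw_of [Nonempty M] {m : ℕ} (hm : 17 ≤ m) {q : ORow} {rel : ℚ}
    (hrow : orowOK2 q = true) (hok : okF rel q = true) (hmq : q.m = m)
    (hV : finrank ℝ V = m) (hW : finrank ℝ W = finrank ℝ V + 2)
    {F : M → W} (hF : SphImm V F) (hmin : ∀ x n, IsUnitNormal V F x n → meanCurv V F x n = 0)
    {ν rl : ℝ} (htail : TailO V F ν rl m) (hrel : (1 + 7 / (5 * (m : ℝ))) * rl ≤ rel) :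
    BoxLaw V F ν (40 / (m : ℝ) ^ 3) (6 / (5 * (m : ℝ))) m := by
  intro L d r s hL hr hr2 hd
  have hd0 : 0 < d := by
    rw [hd]
    positivity
  have hd2 : d ^ 2 * ((m : ℝ) ^ 2 - 1) = 4 := by
    rw [← hr2, hd, div_pow, div_mul_cancel₀ _ (pow_pos hr 2).ne']
    norm_num
  exact hodd_row hrow hok hmq hV hW hF hmin hL s hr hr2 hd
    ⟨oddLow hm L d s hL hd0 hd2, oddHigh hm L d s hL hd0 hd2⟩ htail hrel

/-- **one odd dimension**: the far range, the near range, one row of the tables and the tail in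
the universal box give the sharp bound -/
theorem odd_dim [ConnectedSpace M] {h : ℕ} (h8 : 8 ≤ h) (hV : finrank ℝ V = 2 * h + 1)
    (hW : finrank ℝ W = finrank ℝ V + 2)
    {F : M → W} (hF : SphImm V F) (hmin : ∀ x n, IsUnitNormal V F x n → meanCurv V F x n = 0)
    (hng : ¬ ∃ a : W, a ≠ 0 ∧ ∀ x, ⟪F x, a⟫ = 0) {ν : ℝ}
    (hfar : ∀ N : M → W, ContMDiff 𝓘(ℝ, V) 𝓘(ℝ, W) ∞ N → (∀ x, IsUnitNormal V F x (N x)) →
      ‖∫ x, N x ∂(volM V F)‖ ≤ sphereVol (finrank ℝ V) →
      (volM V F).real univ ≤ leastClifford (finrank ℝ V) →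
      ‖∫ x, N x ∂(volM V F)‖ < ν * (volM V F).real univ)
    {gp h1 d1 : ℝ} (hgp : 1 / (3 * (finrank ℝ V : ℝ) ^ 3) ≤ gp)
    (hnear : ∀ (N : M → W) (b : OrthonormalBasis (Fin (finrank ℝ W)) ℝ W)
      (j : Fin (finrank ℝ W) → ℝ), NearData V F N b j ν → NearOut V F N b j gp h1 d1)
    (hh1 : h1 ≤ 40 / (finrank ℝ V : ℝ) ^ 3) (hd1 : d1 ≤ 6 / (5 * (finrank ℝ V : ℝ)))
    {q : ORow} {rel : ℚ} (hrow : orowOK2 q = true) (hok : okF rel q = true)
    (hmq : q.m = finrank ℝ V) {rl : ℝ} (htail : TailO V F ν rl (finrank ℝ V))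
    (hrel : (1 + 7 / (5 * (finrank ℝ V : ℝ))) * rl ≤ rel) :
    ENNReal.ofReal (leastClifford (finrank ℝ V)) ≤ volM V F univ :=
  odd_of_box h8 hV hW hF hmin hng hfar hgp hnear hh1 hd1
    (boxLaw_of (by omega) hrow hok hmq rfl hW hF hmin htail hrel)

end

end Vale.Agent.P224.R2.H535
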