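import Vale.Agent.P224.R2.H535.OddB
import Vale.Agent.P224.R2.H577.Ent

/-!
One odd dimension from 37 on, from the output of the near range in the form of the tables.
-/

namespace Vale.Agent.P224.R2.H535

open MeasureTheory Set Filter Function Real Module Matrix Vale.Agent.P224 Vale.Agent.P224.FV
  Vale.Agent.P224.R2.H925 Vale.Agent.P224.R2.H582 Vale.Agent.P224.R2.H728
  Vale.Agent.P224.R2.H742 Vale.Agent.P224.R2.H176
open Vale.Agent.P224.SM2 Vale.Agent.P224.R2.H820 Vale.Agent.P224.R2.H581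
open Vale.Agent.P224.R2.H178 (ORow orowOK2)
open Vale.Agent.P224.R2.H577 (NearU)
open scoped RealInnerProductSpace Topology ContDiff Manifold ENNReal

set_option linter.unusedSectionVars false

section

variable {V W M : Type*} [NormedAddCommGroup V] [InnerProductSpace ℝ V] [FiniteDimensional ℝ V]
  [NormedAddCommGroup W] [InnerProductSpace ℝ W] [FiniteDimensional ℝ W]
  [TopologicalSpace M] [ChartedSpace V M]
  [MeasurableSpace V] [BorelSpace V] [MeasurableSpace M] [BorelSpace M]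
  [MeasurableSpace W] [BorelSpace W]
  [IsManifold 𝓘(ℝ, V) ∞ M] [CompactSpace M] [T2Space M] [ConnectedSpace M]

/-- **one odd dimension** from the far range, the near range in the form of the tables, one row of
numbers and the tail in the universal box -/
theorem odd_nearU {h : ℕ} (h8 : 8 ≤ h) (hV : finrank ℝ V = 2 * h + 1)
    (hW : finrank ℝ W = finrank ℝ V + 2)
    {F : M → W} (hF : SphImm V F) (hmin : ∀ x n, IsUnitNormal V F x n → meanCurv V F x n = 0)
    (hng : ¬ ∃ a : W, a ≠ 0 ∧ ∀ x, ⟪F x, a⟫ = 0) {ν : ℝ}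
    (hfar : ∀ N : M → W, ContMDiff 𝓘(ℝ, V) 𝓘(ℝ, W) ∞ N → (∀ x, IsUnitNormal V F x (N x)) →
      ‖∫ x, N x ∂(volM V F)‖ ≤ sphereVol (finrank ℝ V) →
      (volM V F).real univ ≤ leastClifford (finrank ℝ V) →
      ‖∫ x, N x ∂(volM V F)‖ < ν * (volM V F).real univ)
    (hnear : NearU V ν boxH boxD F)
    {q : ORow} {rel : ℚ} (hrow : orowOK2 q = true) (hok : okF rel q = true)
    (hmq : q.m = finrank ℝ V) {rl : ℝ} (htail : TailO V F ν rl (finrank ℝ V))
    (hrel : (1 + 7 / (5 * (finrank ℝ V : ℝ))) * rl ≤ rel) :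
    ENNReal.ofReal (leastClifford (finrank ℝ V)) ≤ volM V F univ := by
  obtain ⟨p, -, -, hodd, hout⟩ := hnear
  obtain ⟨k1, -, k3, k4⟩ := hodd ⟨h, hV⟩
  have e3 := (Rat.cast_le (K := ℝ)).2 k3
  have e4 := (Rat.cast_le (K := ℝ)).2 k4
  rw [boxH_cast] at e3
  rw [boxD_cast] at e4
  exact odd_dim h8 hV hW hF hmin hng hfar k1 hout e3 e4 hrow hok hmq htail hrel

end

end Vale.Agent.P224.R2.H535
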