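import Vale.Agent.P224.R2.H535.OddB

/-!
The tail in the universal box of the odd dimensions from bounds with a uniform bound of the weights.
-/

namespace Vale.Agent.P224.R2.H535

open MeasureTheory Set Filter Function Real Module Matrix Vale.Agent.P224 Vale.Agent.P224.FV
  Vale.Agent.P224.R2.H925 Vale.Agent.P224.R2.H582 Vale.Agent.P224.R2.H728
  Vale.Agent.P224.R2.H742 Vale.Agent.P224.R2.H176
open Vale.Agent.P224.SM2 Vale.Agent.P224.R2.H820
open scoped RealInnerProductSpace Topology ContDiff Manifold ENNReal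

set_option linter.unusedSectionVars false

/-- the bound of the weights in the universal box is decreasing in the dimension -/
lemma kap_mono {m1 m : ℕ} (h1 : 17 ≤ m1) (h2 : m1 ≤ m) {kap : ℝ} (hk0 : 0 ≤ kap)
    (hk : 1 + ((m1 : ℝ) + 2) * (6 / (5 * m1 - 6)) ≤ kap * (m1 + 1)) :
    1 + ((m : ℝ) + 2) * (6 / (5 * m - 6)) ≤ kap * (m + 1) := by
  have h1R : (17 : ℝ) ≤ m1 := by exact_mod_cast h1
  have h2R : (m1 : ℝ) ≤ m := by exact_mod_cast h2
  have h3 : ((m : ℝ) + 2) * (6 / (5 * m - 6)) ≤ ((m1 : ℝ) + 2) * (6 / (5 * m1 - 6)) := by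
    rw [← mul_div_assoc, ← mul_div_assoc, div_le_div_iff₀ (by linarith) (by linarith)]
    nlinarith
  have h4 : kap * ((m1 : ℝ) + 1) ≤ kap * (m + 1) :=
    mul_le_mul_of_nonneg_left (by linarith) hk0
  linarith

section

variable {V W M : Type*} [NormedAddCommGroup V] [InnerProductSpace ℝ V] [FiniteDimensional ℝ V]
  [NormedAddCommGroup W] [InnerProductSpace ℝ W] [FiniteDimensional ℝ W]
  [TopologicalSpace M] [ChartedSpace V M]
  [MeasurableSpace V] [BorelSpace V] [MeasurableSpace M] [BorelSpace M]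
  [MeasurableSpace W] [BorelSpace W]
  [IsManifold 𝓘(ℝ, V) ∞ M] [CompactSpace M] [T2Space M]

/-- the bound of the weights in the universal box -/
lemma weight_box {m : ℕ} (hm : 17 ≤ m) (hV : finrank ℝ V = m) {F N : M → W} {ν : ℝ}
    {b : OrthonormalBasis (Fin (finrank ℝ W)) ℝ W} {j : Fin (finrank ℝ W) → ℝ}
    (hd : NearData V F N b j ν)
    (hfd : √(fro (De (nrm (volM V F)) (co b F) (co b N))) ≤ 6 / (5 * (m : ℝ)))
    (a : Fin (finrank ℝ W)) : j a ^ 2 ≤ 1 + ((m : ℝ) + 2) * (6 / (5 * m - 6)) := by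
  have hmR : (17 : ℝ) ≤ m := by exact_mod_cast hm
  have h0 := hd.t0
  rw [hV] at h0
  have hf0 : 0 ≤ fro (De (nrm (volM V F)) (co b F) (co b N)) := fro_nonneg _
  have hfb : fro (De (nrm (volM V F)) (co b F) (co b N)) ≤ (6 / (5 * (m : ℝ))) ^ 2 := by
    rw [← Real.sq_sqrt hf0]
    exact pow_le_pow_left₀ (Real.sqrt_nonneg _) hfd 2
  have hd1 : 6 / (5 * (m : ℝ)) < 1 := by
    rw [div_lt_one (by linarith)]
    linarith
  have k1 := h0.w_le (by linarith) hd.lsq (by positivity) hd1 hfb a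
  have e : 6 / (5 * (m : ℝ)) / (1 - 6 / (5 * (m : ℝ))) = 6 / (5 * m - 6) := by
    have h5 : (5 * (m : ℝ)) ≠ 0 := by linarith
    have h6 : 1 - 6 / (5 * (m : ℝ)) = (5 * m - 6) / (5 * m) := by
      field_simp
    rw [h6, div_div_div_cancel_right₀ h5]
  rw [e] at k1
  linarith

/-- the tail in the universal box from the tail with a bound of the weights -/
theorem tailO_of {m : ℕ} (hm : 17 ≤ m) (hV : finrank ℝ V = m) {F : M → W} {ν rl kap : ℝ}
    (hk : 1 + ((m : ℝ) + 2) * (6 / (5 * m - 6)) ≤ kap * (m + 1))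
    (h : ∀ (N : M → W) (b : OrthonormalBasis (Fin (finrank ℝ W)) ℝ W)
      (j : Fin (finrank ℝ W) → ℝ), NearData V F N b j ν → (∀ a, j a ^ 2 ≤ kap * (m + 1)) →
      H484.AbsTail (volM V F) m F N (lamO m)
        (rl * hh (nrm (volM V F)) (Matrix.diagonal j) (co b F) (co b N))) :
    TailO V F ν rl m := fun N b j hd _ hfd =>
  h N b j hd fun a => (weight_box hm hV hd hfd a).trans hk

end

end Vale.Agent.P224.R2.H535
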