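import Vale.Agent.P224.R2.H535.OddB
import Vale.Agent.P224.R2.H151.Fin
import Vale.Agent.P224.R2.H926.RelO

/-!
The tail in the universal box of the odd dimensions from 37 to 399.
-/

namespace Vale.Agent.P224.R2.H535

open MeasureTheory Set Filter Function Real Module Matrix Vale.Agent.P224 Vale.Agent.P224.FV
  Vale.Agent.P224.R2.H925 Vale.Agent.P224.R2.H582 Vale.Agent.P224.R2.H728
  Vale.Agent.P224.R2.H176
open Vale.Agent.P224.SM2 Vale.Agent.P224.R2.H820
open Vale.Agent.P224.R2.H926 (rlO rlO_1 rlO_2 rlO_3 rlO_4 rlO_5 rlO_6)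
open scoped RealInnerProductSpace Topology ContDiff Manifold ENNReal

set_option linter.unusedSectionVars false

/-- the threshold function satisfies the bounds -/
lemma thrO_lamO (m : ℕ) : H151.ThrO m (lamO m) := by
  refine ⟨fun T _ hT => ?_, fun T _ hT => ?_, fun T _ hT => ?_⟩
  · unfold lamO
    rw [if_pos hT]
  · unfold lamO
    rw [if_neg (not_le.2 hT)]
    exact le_max_left _ _
  · unfold lamO
    rw [if_neg (not_le.2 hT)]
    exact le_max_right _ _

section

variable {V W M : Type*} [NormedAddCommGroup V] [InnerProductSpace ℝ V] [FiniteDimensional ℝ V]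
  [NormedAddCommGroup W] [InnerProductSpace ℝ W] [FiniteDimensional ℝ W]
  [TopologicalSpace M] [ChartedSpace V M]
  [MeasurableSpace V] [BorelSpace V] [MeasurableSpace M] [BorelSpace M]
  [MeasurableSpace W] [BorelSpace W]
  [IsManifold 𝓘(ℝ, V) ∞ M] [CompactSpace M] [T2Space M]

/-- monotonicity of the tail -/
lemma absTail_le {F N : M → W} {l : ℝ → ℝ} {m : ℕ} {ε1 ε2 : ℝ}
    (h : H484.AbsTail (volM V F) m F N l ε1) (hε : ε1 ≤ ε2) :
    H484.AbsTail (volM V F) m F N l ε2 := by
  obtain ⟨τ, h1, h2, h3⟩ := h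
  exact ⟨τ, h1, h2, h3.trans hε⟩

/-- **the tail in the universal box**, odd dimensions from 37 to 399 -/
theorem tailO_all [Nonempty M] (h37 : 37 ≤ finrank ℝ V) (h399 : finrank ℝ V ≤ 399)
    (hodd : Odd (finrank ℝ V)) (hW : finrank ℝ W = finrank ℝ V + 2)
    {F : M → W} (hF : SphImm V F) (hmin : ∀ x n, IsUnitNormal V F x n → meanCurv V F x n = 0)
    {ν : ℝ} : TailO V F ν (rlO (finrank ℝ V)) (finrank ℝ V) := by
  intro N b j hd hh1 hfd
  have hmR : (37 : ℝ) ≤ (finrank ℝ V : ℝ) := by exact_mod_cast h37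
  have hh2 : hh (nrm (volM V F)) (Matrix.diagonal j) (co b F) (co b N) ≤ 1 / 50 := by
    refine hh1.trans ?_
    rw [div_le_div_iff₀ (by positivity) (by norm_num)]
    have h1 : (37 : ℝ) ^ 3 ≤ (finrank ℝ V : ℝ) ^ 3 := pow_le_pow_left₀ (by norm_num) hmR 3
    linarith
  have h0 := hd.t0.hh_nonneg (Matrix.diagonal j)
  obtain ⟨k, hk⟩ := hodd
  rcases Nat.lt_or_ge (finrank ℝ V) 60 with h | h
  · have h1 := H151.tail_37_60 hW hF hmin (thrO_lamO _) hd hh2 hfd h37 (by omega)
    refine absTail_le h1 (mul_le_mul_of_nonneg_right ?_ h0)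
    rw [rlO_1 (by omega)]
    norm_num
  rcases Nat.lt_or_ge (finrank ℝ V) 100 with h' | h'
  · have h1 := H151.tail_61_100 hW hF hmin (thrO_lamO _) hd hh2 hfd (by omega) (by omega)
    refine absTail_le h1 (mul_le_mul_of_nonneg_right ?_ h0)
    rw [rlO_2 (by omega) (by omega)]
    norm_num
  have h1 := H151.tail_101_400 hW hF hmin (thrO_lamO _) hd hh2 hfd (by omega) (by omega)
  refine absTail_le h1 (mul_le_mul_of_nonneg_right ?_ h0)
  rcases Nat.lt_or_ge (finrank ℝ V) 150 with h2 | h2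
  · rw [rlO_3 (by omega) (by omega)]
    norm_num
  rcases Nat.lt_or_ge (finrank ℝ V) 200 with h3 | h3
  · rw [rlO_4 (by omega) (by omega)]
    norm_num
  rcases Nat.lt_or_ge (finrank ℝ V) 300 with h4 | h4
  · rw [rlO_5 (by omega) (by omega)]
    norm_num
  · rw [rlO_6 (by omega) (by omega)]
    norm_num

end

end Vale.Agent.P224.R2.H535
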